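import Vale.Agent.Lib.P183.Final

open Vale.Agent.Lib.P183

/-- The seven element lattice `L7` (the product of a two element chain and a three element chain
together with one further element that is a common complement) is an interval in the subgroup
lattice of a finite group, and it is the congruence lattice of a finite algebra. The group in
the proof is `SL(2, 64)` with the subgroup `SL(2, 2)`. -/
theorem Vale.Agent.Results.P183.A_L7.result : IsGroupInterval L7 ∧ Representable L7 :=
  ⟨isGroupInterval_L7, representable_L7⟩
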